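import Vale.Agent.P062.Game

namespace Vale.Agent.P062

/-- index to cell: a window of width 22, index 230 is the origin -/
def cellOf (i : ℕ) : Cell := (((i % 22 : ℕ) : ℤ) - 10, ((i / 22 : ℕ) : ℤ) - 10)

theorem cellOf_inj {i j : ℕ} (h : cellOf i = cellOf j) : i = j := by
  simp only [cellOf, Prod.mk.injEq] at h
  omega

theorem cellOf_add (i dx dy : ℕ) (hi : i % 22 ≤ 17) (hdx : dx ≤ 4) :
    cellOf (i + (dx + 22 * dy)) = cellOf i + ((dx : ℤ), (dy : ℤ)) := by
  simp only [cellOf, Prod.mk_add_mk, Prod.mk.injEq]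
  constructor <;> omega

/-- bit masks of the eight orientations, anchored at the lower-left corner of the bounding box -/
def base : ℕ → ℕ
  | 0 => 618970241003636614154420225
  | 1 => 618970167216677911510646785
  | 2 => 125829123
  | 3 => 100663311
  | 4 => 309485083608338955761614850
  | 5 => 12582942
  | 6 => 62914584
  | 7 => 309485231182309137619877890
  | _ => 0

/-- proof trees: `win` = Maker completes a copy, `mv` = Maker moves and has a list of
continuations, `alt` = cons cell of such a list -/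
inductive PT
  | W (x o i : ℕ) : PT
  | N (x : ℕ) (alts : PT) : PT
  | A (t rest : PT) : PT

/-- evaluates a proof tree at Maker mask `M`; returns (intersection, union) of the zones -/
def ev : PT → ℕ → Option (ℕ × ℕ)
  | .W x o i, M =>
      if (decide (i % 22 ≤ 17) && !(M.testBit x) &&
          ((M ||| 1 <<< x) &&& (base o <<< i) == base o <<< i) && decide (o < 8)) = true
      then some (1 <<< x, 1 <<< x) else none
  | .N x alts, M =>
      if M.testBit x = true then none else
      match ev alts (M ||| 1 <<< x) with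
      | some (I, U) => if I = 0 then some (U ||| 1 <<< x, U ||| 1 <<< x) else none
      | none => none
  | .A t rest, M =>
      match ev t M, ev rest M with
      | some (I1, U1), some (I2, U2) => some (I1 &&& I2, U1 ||| U2)
      | _, _ => none

def Rep (M : ℕ) (S : Finset Cell) : Prop :=
  ∀ c, c ∈ S ↔ ∃ j, M.testBit j = true ∧ cellOf j = c

theorem testBit_one_shl (x j : ℕ) : (1 <<< x).testBit j = decide (x = j) := by
  rw [Nat.one_shiftLeft, Nat.testBit_two_pow]

theorem Rep.insert {M : ℕ} {S : Finset Cell} (h : Rep M S) (x : ℕ) :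
    Rep (M ||| 1 <<< x) (insert (cellOf x) S) := by
  intro c
  rw [Finset.mem_insert, h c]
  constructor
  · rintro (rfl | ⟨j, hj, rfl⟩)
    · exact ⟨x, by simp [Nat.testBit_or], rfl⟩
    · exact ⟨j, by simp [Nat.testBit_or, hj], rfl⟩
  · rintro ⟨j, hj, rfl⟩
    rw [Nat.testBit_or, testBit_one_shl, Bool.or_eq_true] at hj
    rcases hj with hj | hj
    · exact Or.inr ⟨j, hj, rfl⟩
    · left
      have : x = j := by simpa using hj
      rw [this]

theorem leaf_sound (o i M : ℕ) (S : Finset Cell) (hRep : Rep M S) (hi : i % 22 ≤ 17) (ho : o < 8)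
    (hmask : M &&& (base o <<< i) = base o <<< i) : ∃ C, IsCopy C ∧ C ⊆ S := by
  have hb : ∀ dx dy : ℕ, dx ≤ 4 → (base o).testBit (dx + 22 * dy) = true →
      cellOf i + ((dx : ℤ), (dy : ℤ)) ∈ S := by
    intro dx dy hdx hbit
    rw [← cellOf_add i dx dy hi hdx, hRep]
    refine ⟨_, ?_, rfl⟩
    have h1 : (base o <<< i).testBit (i + (dx + 22 * dy)) = true := by
      rw [Nat.testBit_shiftLeft]
      simp [hbit]
    rw [← hmask, Nat.testBit_and, Bool.and_eq_true] at h1
    exact h1.1
  have mk : ∀ (s : Bool) (a b : ℤ) (t0 : Cell), (a = 1 ∨ a = -1) → (b = 1 ∨ b = -1) →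
      (∀ p ∈ snaky, (cellOf i + t0) + act s a b p ∈ S) → ∃ C, IsCopy C ∧ C ⊆ S := by
    intro s a b t0 ha hb' hall
    refine ⟨snaky.image (fun p => (cellOf i + t0) + act s a b p), ⟨s, a, b, _, ha, hb', rfl⟩, ?_⟩
    intro c hc
    rw [Finset.mem_image] at hc
    obtain ⟨p, hp, rfl⟩ := hc
    exact hall p hp
  have e : ∀ (t0 q : Cell) (dx dy : ℕ), t0 + q = ((dx : ℤ), (dy : ℤ)) →
      cellOf i + ((dx : ℤ), (dy : ℤ)) ∈ S → (cellOf i + t0) + q ∈ S := by
    intro t0 q dx dy h1 h2
    rw [add_assoc, h1]; exact h2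
  interval_cases o
  · refine mk true 1 1 (0, 0) (by simp) (by simp) ?_
    simp only [snaky, Finset.forall_mem_insert, Finset.mem_singleton, forall_eq]
    refine ⟨e _ _ 0 0 (by simp [act]) (hb 0 0 (by norm_num) (by decide)),
      e _ _ 0 1 (by simp [act]) (hb 0 1 (by norm_num) (by decide)),
      e _ _ 0 2 (by simp [act]) (hb 0 2 (by norm_num) (by decide)),
      e _ _ 0 3 (by simp [act]) (hb 0 3 (by norm_num) (by decide)),
      e _ _ 1 3 (by simp [act]) (hb 1 3 (by norm_num) (by decide)),
      e _ _ 1 4 (by simp [act]) (hb 1 4 (by norm_num) (by decide))⟩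
  · refine mk true (-1) (-1) (1, 4) (by simp) (by simp) ?_
    simp only [snaky, Finset.forall_mem_insert, Finset.mem_singleton, forall_eq]
    refine ⟨e _ _ 1 4 (by simp [act]) (hb 1 4 (by norm_num) (by decide)),
      e _ _ 1 3 (by simp [act]) (hb 1 3 (by norm_num) (by decide)),
      e _ _ 1 2 (by simp [act]) (hb 1 2 (by norm_num) (by decide)),
      e _ _ 1 1 (by simp [act]) (hb 1 1 (by norm_num) (by decide)),
      e _ _ 0 1 (by simp [act]) (hb 0 1 (by norm_num) (by decide)),
      e _ _ 0 0 (by simp [act]) (hb 0 0 (by norm_num) (by decide))⟩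
  · refine mk false (-1) (-1) (4, 1) (by simp) (by simp) ?_
    simp only [snaky, Finset.forall_mem_insert, Finset.mem_singleton, forall_eq]
    refine ⟨e _ _ 4 1 (by simp [act]) (hb 4 1 (by norm_num) (by decide)),
      e _ _ 3 1 (by simp [act]) (hb 3 1 (by norm_num) (by decide)),
      e _ _ 2 1 (by simp [act]) (hb 2 1 (by norm_num) (by decide)),
      e _ _ 1 1 (by simp [act]) (hb 1 1 (by norm_num) (by decide)),
      e _ _ 1 0 (by simp [act]) (hb 1 0 (by norm_num) (by decide)),
      e _ _ 0 0 (by simp [act]) (hb 0 0 (by norm_num) (by decide))⟩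
  · refine mk false 1 1 (0, 0) (by simp) (by simp) ?_
    simp only [snaky, Finset.forall_mem_insert, Finset.mem_singleton, forall_eq]
    refine ⟨e _ _ 0 0 (by simp [act]) (hb 0 0 (by norm_num) (by decide)),
      e _ _ 1 0 (by simp [act]) (hb 1 0 (by norm_num) (by decide)),
      e _ _ 2 0 (by simp [act]) (hb 2 0 (by norm_num) (by decide)),
      e _ _ 3 0 (by simp [act]) (hb 3 0 (by norm_num) (by decide)),
      e _ _ 3 1 (by simp [act]) (hb 3 1 (by norm_num) (by decide)),
      e _ _ 4 1 (by simp [act]) (hb 4 1 (by norm_num) (by decide))⟩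
  · refine mk true 1 (-1) (0, 4) (by simp) (by simp) ?_
    simp only [snaky, Finset.forall_mem_insert, Finset.mem_singleton, forall_eq]
    refine ⟨e _ _ 0 4 (by simp [act]) (hb 0 4 (by norm_num) (by decide)),
      e _ _ 0 3 (by simp [act]) (hb 0 3 (by norm_num) (by decide)),
      e _ _ 0 2 (by simp [act]) (hb 0 2 (by norm_num) (by decide)),
      e _ _ 0 1 (by simp [act]) (hb 0 1 (by norm_num) (by decide)),
      e _ _ 1 1 (by simp [act]) (hb 1 1 (by norm_num) (by decide)),
      e _ _ 1 0 (by simp [act]) (hb 1 0 (by norm_num) (by decide))⟩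
  · refine mk false (-1) 1 (4, 0) (by simp) (by simp) ?_
    simp only [snaky, Finset.forall_mem_insert, Finset.mem_singleton, forall_eq]
    refine ⟨e _ _ 4 0 (by simp [act]) (hb 4 0 (by norm_num) (by decide)),
      e _ _ 3 0 (by simp [act]) (hb 3 0 (by norm_num) (by decide)),
      e _ _ 2 0 (by simp [act]) (hb 2 0 (by norm_num) (by decide)),
      e _ _ 1 0 (by simp [act]) (hb 1 0 (by norm_num) (by decide)),
      e _ _ 1 1 (by simp [act]) (hb 1 1 (by norm_num) (by decide)),
      e _ _ 0 1 (by simp [act]) (hb 0 1 (by norm_num) (by decide))⟩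
  · refine mk false 1 (-1) (0, 1) (by simp) (by simp) ?_
    simp only [snaky, Finset.forall_mem_insert, Finset.mem_singleton, forall_eq]
    refine ⟨e _ _ 0 1 (by simp [act]) (hb 0 1 (by norm_num) (by decide)),
      e _ _ 1 1 (by simp [act]) (hb 1 1 (by norm_num) (by decide)),
      e _ _ 2 1 (by simp [act]) (hb 2 1 (by norm_num) (by decide)),
      e _ _ 3 1 (by simp [act]) (hb 3 1 (by norm_num) (by decide)),
      e _ _ 3 0 (by simp [act]) (hb 3 0 (by norm_num) (by decide)),
      e _ _ 4 0 (by simp [act]) (hb 4 0 (by norm_num) (by decide))⟩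
  · refine mk true (-1) 1 (1, 0) (by simp) (by simp) ?_
    simp only [snaky, Finset.forall_mem_insert, Finset.mem_singleton, forall_eq]
    refine ⟨e _ _ 1 0 (by simp [act]) (hb 1 0 (by norm_num) (by decide)),
      e _ _ 1 1 (by simp [act]) (hb 1 1 (by norm_num) (by decide)),
      e _ _ 1 2 (by simp [act]) (hb 1 2 (by norm_num) (by decide)),
      e _ _ 1 3 (by simp [act]) (hb 1 3 (by norm_num) (by decide)),
      e _ _ 0 3 (by simp [act]) (hb 0 3 (by norm_num) (by decide)),
      e _ _ 0 4 (by simp [act]) (hb 0 4 (by norm_num) (by decide))⟩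

end Vale.Agent.P062
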