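import Vale.Agent.P062.Game

namespace Vale.Agent.P062

theorem MakerWins.image (g g' : Cell → Cell) (h1 : ∀ x, g' (g x) = x) (h2 : ∀ x, g (g' x) = x)
    (hg : ∀ C, IsCopy C → IsCopy (C.image g)) {M B : Finset Cell}
    (h : MakerWins Set.univ M B) : MakerWins Set.univ (M.image g) (B.image g) := by
  have hinj : Function.Injective g := Function.LeftInverse.injective h1
  induction h with
  | @win M B x hx hxM hxB C hC hCB hsub =>
    refine MakerWins.win (g x) (Set.mem_univ _) ?_ ?_ (C.image g) (hg C hC)
      (fun _ _ => Set.mem_univ _) ?_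
    · rwa [hinj.mem_finset_image]
    · rwa [hinj.mem_finset_image]
    · rw [← Finset.image_insert]
      exact Finset.image_subset_image hsub
  | @step M B x hx hxM hxB y₀ hy₀ hy₀M hy₀B hall ih =>
    refine MakerWins.step (g x) (Set.mem_univ _) ?_ ?_ (g y₀) (Set.mem_univ _) ?_ ?_ ?_
    · rwa [hinj.mem_finset_image]
    · rwa [hinj.mem_finset_image]
    · rwa [← Finset.image_insert, hinj.mem_finset_image]
    · rwa [hinj.mem_finset_image]
    · intro y _ hyM hyB
      have e : y = g (g' y) := (h2 y).symm
      rw [e, ← Finset.image_insert, hinj.mem_finset_image] at hyM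
      rw [e, hinj.mem_finset_image] at hyB
      have := ih (g' y) (Set.mem_univ _) hyM hyB
      rw [Finset.image_insert, Finset.image_insert, h2] at this
      exact this

theorem act_add (s : Bool) (a b : ℤ) (p q : Cell) :
    act s a b (p + q) = act s a b p + act s a b q := by
  cases s <;> simp [act, mul_add]

theorem act_act (s s' : Bool) (a b a' b' : ℤ) (p : Cell) :
    act s' a' b' (act s a b p) =
      act (xor s s') (if s' then a' * b else a' * a) (if s' then b' * a else b' * b) p := by
  cases s <;> cases s' <;> simp [act, mul_assoc]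

theorem isCopy_act (s' : Bool) (a' b' : ℤ) (ha' : a' = 1 ∨ a' = -1) (hb' : b' = 1 ∨ b' = -1)
    (C : Finset Cell) (hC : IsCopy C) : IsCopy (C.image (act s' a' b')) := by
  obtain ⟨s, a, b, t, ha, hb, rfl⟩ := hC
  refine ⟨xor s s', (if s' then a' * b else a' * a), (if s' then b' * a else b' * b),
    act s' a' b' t, ?_, ?_, ?_⟩
  · rcases ha with rfl | rfl <;> rcases hb with rfl | rfl <;> rcases ha' with rfl | rfl <;>
      cases s' <;> simp
  · rcases ha with rfl | rfl <;> rcases hb with rfl | rfl <;> rcases hb' with rfl | rfl <;>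
      cases s' <;> simp
  · rw [Finset.image_image]
    apply Finset.image_congr
    intro p _
    simp only [Function.comp, act_add, act_act]

/-- inverse symmetry -/
def actInv (s : Bool) (a b : ℤ) (p : Cell) : Cell := if s then act true b a p else act false a b p

theorem actInv_act (s : Bool) (a b : ℤ) (ha : a = 1 ∨ a = -1) (hb : b = 1 ∨ b = -1) (p : Cell) :
    actInv s a b (act s a b p) = p := by
  rcases ha with rfl | rfl <;> rcases hb with rfl | rfl <;> cases s <;> simp [actInv, act]

theorem act_actInv (s : Bool) (a b : ℤ) (ha : a = 1 ∨ a = -1) (hb : b = 1 ∨ b = -1) (p : Cell) :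
    act s a b (actInv s a b p) = p := by
  rcases ha with rfl | rfl <;> rcases hb with rfl | rfl <;> cases s <;> simp [actInv, act]

theorem isCopy_actInv (s : Bool) (a b : ℤ) (ha : a = 1 ∨ a = -1) (hb : b = 1 ∨ b = -1)
    (C : Finset Cell) (hC : IsCopy C) : IsCopy (C.image (actInv s a b)) := by
  cases s
  · exact isCopy_act false a b ha hb C hC
  · exact isCopy_act true b a hb ha C hC

/-- if Maker wins against the reflected reply, Maker wins against the reply -/
theorem win_of_sym (s : Bool) (a b : ℤ) (ha : a = 1 ∨ a = -1) (hb : b = 1 ∨ b = -1) (c : Cell)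
    (h : MakerWins Set.univ {(0, 0)} {act s a b c}) : MakerWins Set.univ {(0, 0)} {c} := by
  have := MakerWins.image (actInv s a b) (act s a b) (act_actInv s a b ha hb)
    (actInv_act s a b ha hb) (isCopy_actInv s a b ha hb) h
  rw [Finset.image_singleton, Finset.image_singleton, actInv_act s a b ha hb] at this
  have h0 : actInv s a b (0, 0) = (0, 0) := by cases s <;> simp [actInv, act]
  rwa [h0] at this

end Vale.Agent.P062
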