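import Vale.Agent.P062.Sound
import Vale.Agent.P062.Sym

namespace Vale.Agent.P062

theorem rep_origin : Rep (1 <<< 230) {((0 : ℤ), (0 : ℤ))} := by
  intro c
  rw [Finset.mem_singleton]
  constructor
  · rintro rfl
    exact ⟨230, by rw [testBit_one_shl]; simp, by simp [cellOf]⟩
  · rintro ⟨j, hj, rfl⟩
    rw [testBit_one_shl] at hj
    have : 230 = j := by simpa using hj
    subst this
    simp [cellOf]

theorem win_of_tree (t : PT) (Z : ℕ) (h : ev t (1 <<< 230) = some (Z, Z)) (b : Cell)
    (hb0 : b ≠ (0, 0)) (hb : ∀ j, Z.testBit j = true → cellOf j ≠ b) :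
    MakerWins Set.univ {(0, 0)} {b} := by
  have := ev_sound t _ _ _ h {(0, 0)} ∅ b rep_origin (by
    intro c hc
    rw [Finset.mem_singleton] at hc
    subst hc
    simp [Ne.symm hb0]) (by simp) hb
  simpa using this

/-- does the cell `c` lie in the zone with mask `Z`? -/
def hit (Z : ℕ) (c : Cell) : Bool :=
  decide (-10 ≤ c.1) && decide (c.1 ≤ 11) && decide (-10 ≤ c.2) &&
    Z.testBit ((c.2 + 10).toNat * 22 + (c.1 + 10).toNat)

theorem avoid_of_hit (Z : ℕ) (c : Cell) (h : hit Z c = false) :
    ∀ j, Z.testBit j = true → cellOf j ≠ c := by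
  rintro j hj rfl
  have e : ((cellOf j).2 + 10).toNat * 22 + ((cellOf j).1 + 10).toNat = j := by
    simp only [cellOf]
    omega
  have h1 : -10 ≤ (cellOf j).1 := by simp only [cellOf]; omega
  have h2 : (cellOf j).1 ≤ 11 := by simp only [cellOf]; omega
  have h3 : -10 ≤ (cellOf j).2 := by simp only [cellOf]; omega
  simp [hit, e, hj, h1, h2, h3] at h

theorem win_of_hit (t : PT) (Z : ℕ) (h : ev t (1 <<< 230) = some (Z, Z)) (s : Bool) (a b : ℤ)
    (ha : a = 1 ∨ a = -1) (hb : b = 1 ∨ b = -1) (c : Cell) (hc0 : c ≠ (0, 0))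
    (hh : hit Z (act s a b c) = false) : MakerWins Set.univ {(0, 0)} {c} := by
  apply win_of_sym s a b ha hb
  apply win_of_tree t Z h _ _ (avoid_of_hit Z _ hh)
  intro h0
  apply hc0
  have := congrArg (actInv s a b) h0
  rw [actInv_act s a b ha hb] at this
  rw [this]
  cases s <;> simp [actInv, act]

theorem hit_far (Z : ℕ) (hZ : Z < 2 ^ 484) (c : Cell)
    (hc : ¬ (-10 ≤ c.1 ∧ c.1 ≤ 11 ∧ -10 ≤ c.2 ∧ c.2 ≤ 11)) : hit Z c = false := by
  by_cases h1 : -10 ≤ c.1
  · by_cases h2 : c.1 ≤ 11
    · by_cases h3 : -10 ≤ c.2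
      · have h4 : 11 < c.2 := by
          by_contra h4
          exact hc ⟨h1, h2, h3, by omega⟩
        have : Z.testBit ((c.2 + 10).toNat * 22 + (c.1 + 10).toNat) = false := by
          apply Nat.testBit_eq_false_of_lt
          refine lt_of_lt_of_le hZ (Nat.pow_le_pow_right (by norm_num) ?_)
          omega
        simp [hit, this]
      · simp [hit, h3]
    · simp [hit, h2]
  · simp [hit, h1]

theorem cell_eq_cellOf (c : Cell) (hc : -10 ≤ c.1 ∧ c.1 ≤ 11 ∧ -10 ≤ c.2 ∧ c.2 ≤ 11) :
    ∃ j, j < 484 ∧ cellOf j = c := by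
  refine ⟨(c.2 + 10).toNat * 22 + (c.1 + 10).toNat, by omega, ?_⟩
  obtain ⟨x, y⟩ := c
  simp only [cellOf, Prod.mk.injEq]
  simp only at hc
  constructor <;> omega

/-- translation invariance -/
theorem isCopy_translate (v : Cell) (C : Finset Cell) (hC : IsCopy C) :
    IsCopy (C.image (fun p => v + p)) := by
  obtain ⟨s, a, b, t, ha, hb, rfl⟩ := hC
  refine ⟨s, a, b, v + t, ha, hb, ?_⟩
  rw [Finset.image_image]
  apply Finset.image_congr
  intro p _
  simp [Function.comp, add_assoc]

theorem win_translate (v : Cell) {M B : Finset Cell} (h : MakerWins Set.univ M B) :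
    MakerWins Set.univ (M.image (fun p => v + p)) (B.image (fun p => v + p)) :=
  MakerWins.image (fun p => v + p) (fun p => -v + p) (by intro x; simp) (by intro x; simp)
    (isCopy_translate v) h

theorem copy_card (C : Finset Cell) (hC : IsCopy C) : C.card = 6 := by
  obtain ⟨s, a, b, t, ha, hb, rfl⟩ := hC
  rw [Finset.card_image_of_injective]
  · decide
  · intro p q hpq
    have h1 : act s a b p = act s a b q := add_left_cancel hpq
    have := congrArg (actInv s a b) h1
    rwa [actInv_act s a b ha hb, actInv_act s a b ha hb] at this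

/-- Maker wins from the empty board iff Maker wins after opening at the origin against every
reply. -/
theorem win_empty_iff :
    MakerWins Set.univ ∅ ∅ ↔ ∀ b : Cell, b ≠ (0, 0) → MakerWins Set.univ {(0, 0)} {b} := by
  constructor
  · intro h b hb
    cases h with
    | win x hx hxM hxB C hC hCB hsub =>
      exfalso
      have h6 := copy_card C hC
      have := Finset.card_le_card hsub
      simp at this
      omega
    | step x hx hxM hxB y₀ hy₀ hy₀M hy₀B hall =>
      have h1 := hall (x + b) (Set.mem_univ _) (by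
        simp only [insert_empty_eq, Finset.mem_singleton]
        intro h
        apply hb
        have : x + b = x + 0 := by rw [h, add_zero]
        exact add_left_cancel this) (by simp)
      have h2 := win_translate (-x) h1
      have e0 : ((0 : ℤ), (0 : ℤ)) = (0 : Cell) := rfl
      rw [e0]
      simpa using h2
  · intro h
    refine MakerWins.step (0, 0) (Set.mem_univ _) (by simp) (by simp) (1, 0) (Set.mem_univ _)
      (by simp) (by simp) ?_
    intro y _ hy _
    have hy' : y ≠ (0, 0) := by simpa using hy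
    simpa using h y hy'

end Vale.Agent.P062
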