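import Mathlib

namespace Vale.Agent.P062

/-- A cell of the square grid, indexed by its lower-left corner. -/
abbrev Cell : Type := ℤ × ℤ

/-- The hexomino Snaky. -/
def snaky : Finset Cell := {(0, 0), (1, 0), (2, 0), (3, 0), (3, 1), (4, 1)}

/-- The action of the eight signed permutation matrices: `s` says whether the two
coordinates are swapped, and `a`, `b` (each `1` or `-1`) are the two signs. -/
def act (s : Bool) (a b : ℤ) (p : Cell) : Cell :=
  if s then (a * p.2, b * p.1) else (a * p.1, b * p.2)

/-- `C` is an allowed copy of Snaky: `C = t + R(S)` with `R` a signed permutation matrix. -/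
def IsCopy (C : Finset Cell) : Prop :=
  ∃ (s : Bool) (a b : ℤ) (t : Cell), (a = 1 ∨ a = -1) ∧ (b = 1 ∨ b = -1) ∧
    C = snaky.image (fun p => t + act s a b p)

/-- `MakerWins Bd M B`: on the board `Bd`, with Maker owning `M`, Breaker owning `B` and Maker
to move, Maker can force, after finitely many turns, ownership of an allowed copy inside `Bd`.
`win`: Maker claims a free cell `x` and then owns a copy.
`step`: Maker claims a free cell `x`, Breaker still has a legal reply, and Maker wins after
every legal reply `y`. -/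
inductive MakerWins (Bd : Set Cell) : Finset Cell → Finset Cell → Prop
  | win {M B : Finset Cell} (x : Cell) (hx : x ∈ Bd) (hxM : x ∉ M) (hxB : x ∉ B)
      (C : Finset Cell) (hC : IsCopy C) (hCB : ∀ c ∈ C, c ∈ Bd) (h : C ⊆ insert x M) :
      MakerWins Bd M B
  | step {M B : Finset Cell} (x : Cell) (hx : x ∈ Bd) (hxM : x ∉ M) (hxB : x ∉ B)
      (y₀ : Cell) (hy₀ : y₀ ∈ Bd) (hy₀M : y₀ ∉ insert x M) (hy₀B : y₀ ∉ B)
      (h : ∀ y ∈ Bd, y ∉ insert x M → y ∉ B → MakerWins Bd (insert x M) (insert y B)) :
      MakerWins Bd M B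

end Vale.Agent.P062
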