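import Vale.Agent.P062.Game

namespace Vale.Agent.P062

theorem no_win_of_pairing_aux (Bd : Set Cell) (π : Cell → Cell)
    (hinv : ∀ x, π (π x) = x) (hmem : ∀ x ∈ Bd, π x ∈ Bd)
    (hcov : ∀ C, IsCopy C → (∀ c ∈ C, c ∈ Bd) → ∃ c ∈ C, π c ∈ C ∧ π c ≠ c)
    (M B : Finset Cell) (h : MakerWins Bd M B) :
    (∀ x ∈ M, π x ≠ x → π x ∈ B) → (∀ x ∈ M, x ∉ B) → False := by
  induction h with
  | @win M B x hx hxM hxB C hC hCB hsub =>
    intro hinvt hdisj
    obtain ⟨c, hc, hpc, hne⟩ := hcov C hC hCB
    have h1 := hsub hc
    have h2 := hsub hpc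
    rw [Finset.mem_insert] at h1 h2
    rcases h1 with h1 | h1
    · subst h1
      rcases h2 with h2 | h2
      · exact hne h2
      · have h3 := hinvt _ h2 (by rw [hinv]; exact fun h => hne h.symm)
        rw [hinv] at h3
        exact hxB h3
    · have h3 := hinvt _ h1 hne
      rcases h2 with h2 | h2
      · rw [h2] at h3; exact hxB h3
      · exact hdisj _ h2 h3
  | @step M B x hx hxM hxB y₀ hy₀ hy₀M hy₀B hall ih =>
    intro hinvt hdisj
    by_cases hcase : π x ≠ x ∧ π x ∉ B
    · obtain ⟨hne, hnB⟩ := hcase
      have hnM : π x ∉ insert x M := by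
        rw [Finset.mem_insert]
        rintro (h | h)
        · exact hne h
        · have h3 := hinvt _ h (by rw [hinv]; exact fun h => hne h.symm)
          rw [hinv] at h3
          exact hxB h3
      refine ih (π x) (hmem x hx) hnM hnB ?_ ?_
      · intro z hz hzne
        rw [Finset.mem_insert] at hz
        rcases hz with hz | hz
        · subst hz; exact Finset.mem_insert_self _ _
        · exact Finset.mem_insert_of_mem (hinvt z hz hzne)
      · intro z hz hzB
        rw [Finset.mem_insert] at hzB
        rcases hzB with hzB | hzB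
        · exact hnM (hzB ▸ hz)
        · rw [Finset.mem_insert] at hz
          rcases hz with hz | hz
          · exact hxB (hz ▸ hzB)
          · exact hdisj z hz hzB
    · refine ih y₀ hy₀ hy₀M hy₀B ?_ ?_
      · intro z hz hzne
        rw [Finset.mem_insert] at hz
        rcases hz with hz | hz
        · subst hz
          by_contra hcon
          apply hcase
          refine ⟨hzne, fun h => hcon (Finset.mem_insert_of_mem h)⟩
        · exact Finset.mem_insert_of_mem (hinvt z hz hzne)
      · intro z hz hzB
        rw [Finset.mem_insert] at hzB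
        rcases hzB with hzB | hzB
        · exact hy₀M (hzB ▸ hz)
        · rw [Finset.mem_insert] at hz
          rcases hz with hz | hz
          · exact hxB (hz ▸ hzB)
          · exact hdisj z hz hzB

/-- A pairing (an involution `π`, whose fixed points are the unpaired cells) such that every
allowed copy inside the board contains a pair gives Breaker a win. -/
theorem no_win_of_pairing (Bd : Set Cell) (π : Cell → Cell)
    (hinv : ∀ x, π (π x) = x) (hmem : ∀ x ∈ Bd, π x ∈ Bd)
    (hcov : ∀ C, IsCopy C → (∀ c ∈ C, c ∈ Bd) → ∃ c ∈ C, π c ∈ C ∧ π c ≠ c) :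
    ¬ MakerWins Bd ∅ ∅ := fun h =>
  no_win_of_pairing_aux Bd π hinv hmem hcov ∅ ∅ h (by simp) (by simp)

end Vale.Agent.P062
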