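import Vale.Agent.P062.Cert

namespace Vale.Agent.P062

theorem ev_sound (t : PT) : ∀ (M I U : ℕ), ev t M = some (I, U) →
    ∀ (S B : Finset Cell) (y : Cell), Rep M S →
    (∀ c ∈ S, c ∉ insert y B) → (∀ j, U.testBit j = true → cellOf j ∉ B) →
    (∀ j, I.testBit j = true → cellOf j ≠ y) →
    MakerWins Set.univ S (insert y B) := by
  induction t with
  | W x o i =>
    intro M I U hev S B y hRep hdisj hU hI
    simp only [ev] at hev
    split_ifs at hev with hc
    simp only [Option.some.injEq, Prod.mk.injEq] at hev
    obtain ⟨rfl, rfl⟩ := hev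
    simp only [Bool.and_eq_true, decide_eq_true_eq, Bool.not_eq_true', beq_iff_eq] at hc
    obtain ⟨⟨⟨hi, hx⟩, hmask⟩, ho⟩ := hc
    have hxS : cellOf x ∉ S := by
      intro h
      obtain ⟨j, hj, hjx⟩ := (hRep _).1 h
      rw [cellOf_inj hjx, hx] at hj
      exact Bool.false_ne_true hj
    have hxB : cellOf x ∉ insert y B := by
      rw [Finset.mem_insert]
      rintro (h | h)
      · exact hI x (by simp) h
      · exact hU x (by simp) h
    obtain ⟨C, hC, hsub⟩ := leaf_sound o i _ _ (hRep.insert x) hi ho hmask
    exact MakerWins.win (cellOf x) (Set.mem_univ _) hxS hxB C hC (fun _ _ => Set.mem_univ _) hsub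
  | N x alts ih =>
    intro M I U hev S B y hRep hdisj hU hI
    simp only [ev] at hev
    split_ifs at hev with hx
    rcases hal : ev alts (M ||| 1 <<< x) with _ | ⟨I', U'⟩
    · simp [hal] at hev
    · simp only [hal] at hev
      split_ifs at hev with hI0
      simp only [Option.some.injEq, Prod.mk.injEq] at hev
      obtain ⟨rfl, rfl⟩ := hev
      have hxS : cellOf x ∉ S := by
        intro h
        obtain ⟨j, hj, hjx⟩ := (hRep _).1 h
        rw [cellOf_inj hjx] at hj
        exact hx hj
      have hxbit : (U' ||| 1 <<< x).testBit x = true := by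
        simp [Nat.testBit_or]
      have hxB : cellOf x ∉ insert y B := by
        rw [Finset.mem_insert]
        rintro (h | h)
        · exact hI x hxbit h
        · exact hU x hxbit h
      obtain ⟨y₀, hy₀⟩ := Infinite.exists_notMem_finset (insert (cellOf x) S ∪ insert y B)
      rw [Finset.mem_union, not_or] at hy₀
      refine MakerWins.step (cellOf x) (Set.mem_univ _) hxS hxB y₀ (Set.mem_univ _) hy₀.1 hy₀.2 ?_
      intro y' _ hy'M hy'B
      refine ih _ _ _ hal _ _ y' (hRep.insert x) ?_ ?_ ?_
      · intro c hc hcB
        rw [Finset.mem_insert] at hcB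
        rcases hcB with hcB | hcB
        · exact hy'M (hcB ▸ hc)
        · rw [Finset.mem_insert] at hc
          rcases hc with hc | hc
          · exact hxB (hc ▸ hcB)
          · exact hdisj c hc hcB
      · intro j hj hjB
        have hj' : (U' ||| 1 <<< x).testBit j = true := by
          rw [Nat.testBit_or, hj]; rfl
        rw [Finset.mem_insert] at hjB
        rcases hjB with hjB | hjB
        · exact hI j hj' hjB
        · exact hU j hj' hjB
      · intro j hj
        rw [hI0] at hj
        simp at hj
  | A t rest iht ihr =>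
    intro M I U hev S B y hRep hdisj hU hI
    simp only [ev] at hev
    rcases h1 : ev t M with _ | ⟨I1, U1⟩
    · simp [h1] at hev
    rcases h2 : ev rest M with _ | ⟨I2, U2⟩
    · simp [h1, h2] at hev
    simp only [h1, h2, Option.some.injEq, Prod.mk.injEq] at hev
    obtain ⟨rfl, rfl⟩ := hev
    by_cases hcase : ∀ j, I1.testBit j = true → cellOf j ≠ y
    · refine iht _ _ _ h1 S B y hRep hdisj ?_ hcase
      intro j hj
      exact hU j (by rw [Nat.testBit_or, hj]; rfl)
    · push Not at hcase
      obtain ⟨j0, hj0, hj0y⟩ := hcase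
      refine ihr _ _ _ h2 S B y hRep hdisj ?_ ?_
      · intro j hj
        exact hU j (by rw [Nat.testBit_or, hj, Bool.or_true])
      · intro j hj hjy
        have : j = j0 := cellOf_inj (hjy.trans hj0y.symm)
        subst this
        exact hI j (by rw [Nat.testBit_and, hj, hj0]; rfl) hjy

end Vale.Agent.P062
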