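import Vale.Agent.P062.Pairing

namespace Vale.Agent.P062

/-- the pairing of period three on the strip of width five -/
def pi5 (c : Cell) : Cell :=
  if c.2 = 1 ∨ c.2 = 2 ∨ c.2 = 3 then
    if c.1 % 3 = 0 then (c.1 + 1, c.2) else if c.1 % 3 = 1 then (c.1 - 1, c.2)
    else if c.2 = 1 then (c.1, 0) else if c.2 = 3 then (c.1, 4) else c
  else if c.2 = 0 ∨ c.2 = 4 then
    if c.1 % 3 = 1 then (c.1 + 2, c.2) else if c.1 % 3 = 0 then (c.1 - 2, c.2)
    else if c.2 = 0 then (c.1, 1) else (c.1, 3)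
  else c

theorem pi5_inv (c : Cell) : pi5 (pi5 c) = c := by
  obtain ⟨x, y⟩ := c
  have hx : x % 3 = 0 ∨ x % 3 = 1 ∨ x % 3 = 2 := by omega
  by_cases h0 : y = 0
  · subst h0
    rcases hx with hx | hx | hx
    · have h2 : (x - 2) % 3 = 1 := by omega
      simp [pi5, hx, h2]
    · have h2 : (x + 2) % 3 = 0 := by omega
      simp [pi5, hx, h2]
    · simp [pi5, hx]
  by_cases h1 : y = 1
  · subst h1
    rcases hx with hx | hx | hx
    · have h2 : (x + 1) % 3 = 1 := by omega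
      simp [pi5, hx, h2]
    · have h2 : (x - 1) % 3 = 0 := by omega
      simp [pi5, hx, h2]
    · simp [pi5, hx]
  by_cases h2 : y = 2
  · subst h2
    rcases hx with hx | hx | hx
    · have h2 : (x + 1) % 3 = 1 := by omega
      simp [pi5, hx, h2]
    · have h2 : (x - 1) % 3 = 0 := by omega
      simp [pi5, hx, h2]
    · simp [pi5, hx]
  by_cases h3 : y = 3
  · subst h3
    rcases hx with hx | hx | hx
    · have h2 : (x + 1) % 3 = 1 := by omega
      simp [pi5, hx, h2]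
    · have h2 : (x - 1) % 3 = 0 := by omega
      simp [pi5, hx, h2]
    · simp [pi5, hx]
  by_cases h4 : y = 4
  · subst h4
    rcases hx with hx | hx | hx
    · have h2 : (x - 2) % 3 = 1 := by omega
      simp [pi5, hx, h2]
    · have h2 : (x + 2) % 3 = 0 := by omega
      simp [pi5, hx, h2]
    · simp [pi5, hx]
  simp [pi5, h0, h1, h2, h3, h4]

theorem pi5_shift (c : Cell) (q : ℤ) : pi5 (c + (3 * q, 0)) = pi5 c + (3 * q, 0) := by
  obtain ⟨x, y⟩ := c
  have hx : (x + 3 * q) % 3 = x % 3 := by omega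
  simp only [pi5, Prod.mk_add_mk, add_zero, hx]
  split_ifs <;> simp <;> ring

/-- finite check: all copies with translation `(r, ty)`, `0 ≤ r < 3`, inside the strip -/
theorem pi5_cover_fin : ∀ s : Bool, ∀ a ∈ ({1, -1} : Finset ℤ), ∀ b ∈ ({1, -1} : Finset ℤ),
    ∀ r ∈ Finset.Ico (0 : ℤ) 3, ∀ ty ∈ Finset.Ico (-5 : ℤ) 10,
    (∀ p ∈ snaky, 0 ≤ ((r, ty) + act s a b p).2 ∧ ((r, ty) + act s a b p).2 < 5) →
    ∃ p ∈ snaky, ∃ p' ∈ snaky, pi5 ((r, ty) + act s a b p) = (r, ty) + act s a b p' ∧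
      pi5 ((r, ty) + act s a b p) ≠ (r, ty) + act s a b p := by
  decide +kernel

end Vale.Agent.P062
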